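import Vale.Agent.P129.H471.NonM
import Vale.Agent.P129.H448.Family

/-! # P129, part N: the family of branches in the form used by the final assembly -/

open Set Cardinal

namespace Vale.Agent.P129.H471

open H448 H50

theorem isLim_of_block {l : W} {h : ℕ → Vec} (hb : IsBlock l h) : IsLim l := by
  constructor
  · obtain ⟨c, hc⟩ := Finsupp.support_nonempty_iff.2 (hb.ne 0)
    exact ⟨c, hb.lt 0 c hc⟩
  · intro a ha
    obtain ⟨k, hk⟩ := hb.cof a ha
    obtain ⟨c, hc⟩ := Finsupp.support_nonempty_iff.2 (hb.ne k)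
    exact ⟨c, hk c hc, hb.lt k c hc⟩

/-- A branch family gives a `Family` which kills everything. -/
theorem family_of_branchFamily {C : ℝ} (h : BranchFamily C) : ∃ 𝓕 : Family, 𝓕.KillsAll C := by
  obtain ⟨br, h1, h2, h3⟩ := h
  refine ⟨⟨br, fun μ Φ hΦ => (h1 μ Φ hΦ).1, fun μ Φ hΦ k a ha => ?_, h2⟩, ?_⟩
  · obtain ⟨-, l, -, hl, hc⟩ := h1 μ Φ hΦ
    exact (hc.1 k a ha).trans_le hl
  · intro l h hb a
    obtain ⟨μ, ha, hl, Φ, hΦ, hc, hk⟩ := h3 l h (isLim_of_block hb) hb a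
    refine ⟨μ, ha, hl, Φ, hΦ, hc, ?_⟩
    choose u hu hC hpr using hk
    exact ⟨u, fun i => ⟨hu i, hC i, hpr i⟩⟩

/-- **The family of branches**, if some set of `ℵ₁` reals is not meagre. -/
theorem exists_family (hnm : H189.nonMeagre = ℵ_ 1) {C : ℝ}
    (hP : ∀ (l : W) (h : ℕ → Vec), IsBlock l h → PairSupply h C) : ∃ 𝓕 : Family, 𝓕.KillsAll C :=
  family_of_branchFamily (branchFamily_of_nonMeagre hnm fun l h _ hb => hP l h hb)

end Vale.Agent.P129.H471
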