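import Vale.Agent.P129.H471.Tree
import Vale.Agent.P129.H3.CH
import Vale.Agent.P129.H189.Dens

/-!
# P129, part N: branches from a nonmeagre set of reals of cardinality `ℵ₁`

`BranchFamily C` is what the construction of the space needs: pairwise almost disjoint infinite
special sequences, assigned to members of `W`, such that every block sequence is killed by
arbitrarily late ones.
-/

open Set Filter Topology Cardinal

namespace Vale.Agent.P129.H471

open H448 H50

/-- Pairwise almost disjoint infinite special sequences `br μ` (for some of the `μ : W`), the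
supports of `br μ` being cofinal in a limit index `≤ μ`, such that for every block sequence `h`
cofinal in `l` and every `m` some `br μ` with `μ ≥ m` is cofinal in `l` and kills `h`. -/
def BranchFamily (C : ℝ) : Prop :=
  ∃ br : W → Option (ℕ → Node),
    (∀ μ b, br μ = some b → IsInf b ∧ ∃ l, IsLim l ∧ l ≤ μ ∧ Cofinal b l) ∧
    (∀ μ ν b b', μ ≠ ν → br μ = some b → br ν = some b' → AlmostDisj b b') ∧
    ∀ (l : W) (h : ℕ → Vec), IsLim l → IsBlock l h → ∀ m : W, ∃ μ, m ≤ μ ∧ l ≤ μ ∧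
      ∃ b, br μ = some b ∧ Cofinal b l ∧ Kills b h C

theorem almostDisj_symm {Φ Ψ : ℕ → Node} (h : AlmostDisj Φ Ψ) : AlmostDisj Ψ Φ := by
  refine h.subset ?_
  rintro w ⟨h1, h2⟩
  exact ⟨h2, h1⟩

theorem infCoded {Φ : ℕ → Node} (h : IsInf Φ) : H853.InfCoded F Φ :=
  fun j => (h (j + 1)).cod j (Nat.lt_succ_self j)

/-- Two infinite special sequences which are cofinal in the same index and are not almost disjoint
are equal. -/
theorem eq_of_not_almostDisj {Φ Ψ : ℕ → Node} {l : W} (hΦ : IsInf Φ) (hΨ : IsInf Ψ)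
    (hcΦ : Cofinal Φ l) (hcΨ : Cofinal Ψ l) (h : ¬ AlmostDisj Φ Ψ) : Φ = Ψ := by
  have hw : ∀ j, (Φ j).w = (Ψ j).w := by
    intro j
    by_contra hne
    refine h (((Finset.range (j + 1)).image fun k => (Φ k).w).finite_toSet.subset ?_)
    rintro w ⟨⟨k, hk⟩, ⟨k', hk'⟩⟩
    rw [Finset.coe_image, Set.mem_image]
    refine ⟨k, ?_, hk⟩
    rw [Finset.coe_range, Set.mem_Iio]
    by_contra hcon
    have h1 : (Φ k).w = (Ψ k').w := hk.trans hk'.symm
    have h2 := ((hΦ (k + 1)).cod.of_w_eq (hΨ (k' + 1)).cod (Nat.lt_succ_self k)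
      (Nat.lt_succ_self k') h1).1
    subst h2
    exact hne ((infCoded hΦ).w_eq_of_le (infCoded hΨ) (by omega) h1)
  have hco : ∀ {Φ Ψ : ℕ → Node}, IsInf Ψ → Cofinal Φ l → Cofinal Ψ l →
      ∀ i, ∀ ξ ∈ (Φ i).φ.support, ∃ i', ∃ ξ' ∈ (Ψ i').φ.support, ξ ≤ ξ' := by
    intro Φ Ψ hΨ hcΦ hcΨ i ξ hξ
    obtain ⟨k, hk⟩ := hcΨ.2 ξ (hcΦ.1 i ξ hξ)
    obtain ⟨c, hc⟩ := Finsupp.support_nonempty_iff.2 (infCoded hΨ k).ne
    exact ⟨k, c, hc, (hk c hc).le⟩
  funext j
  exact (infCoded hΦ).eq_of_w_eq F_coherent (infCoded hΨ) hw (hco hΨ hcΦ hcΨ) (hco hΦ hcΨ hcΦ) j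

/-- distinct parities for distinct indices -/
theorem exists_parities : ∃ r : W → ℕ → Bool, Function.Injective r := by
  have h : #W ≤ #(ℕ → Bool) := by
    rw [mk_W]
    have : #(ℕ → Bool) = continuum := by simp
    rw [this]
    exact Cardinal.aleph_one_le_continuum
  obtain ⟨e⟩ := h
  exact ⟨e, e.injective⟩

/-- **Branches from a nonmeagre set of cardinality `ℵ₁`.** -/
theorem branchFamily_of_nonMeagre (hnm : H189.nonMeagre = ℵ_ 1) {C : ℝ}
    (hP : ∀ (l : W) (h : ℕ → Vec), IsLim l → IsBlock l h → PairSupply h C) : BranchFamily C := by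
  classical
  -- a surjection of `W` onto a nonmeagre set
  obtain ⟨S, hS, hScard⟩ := H189.nonMeagre_mem
  rw [hnm] at hScard
  obtain ⟨g, hg⟩ : ∃ g : W → ℝ, ∀ x ∈ S, ∃ ξ, g ξ = x := by
    have h1 : #W = #S := by rw [mk_W, hScard]
    obtain ⟨e⟩ := Cardinal.eq.1 h1
    exact ⟨fun ξ => (e ξ : ℝ), fun x hx => ⟨e.symm ⟨x, hx⟩, by simp⟩⟩
  obtain ⟨r, hr⟩ := exists_parities
  choose B hB using fun l => exists_branches l (r l)
  obtain ⟨data, hdata⟩ := H3.exists_cofinal_enumeration (ι := W) (D := W × W) mk_W countable_Iio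
    (by
      rw [Cardinal.mk_prod]
      simp only [Cardinal.lift_id, mk_W]
      exact (Cardinal.mul_eq_self (Cardinal.aleph0_le_aleph 1)).le)
  let cand : W → ℕ → Node := fun μ => B (data μ).1 (g (data μ).2)
  let base : W → Prop := fun μ => IsLim (data μ).1 ∧ (data μ).1 ≤ μ ∧ IsInf (cand μ) ∧
    Cofinal (cand μ) (data μ).1 ∧ ∀ i, Par (r (data μ).1) (cand μ i) i
  let new : W → Prop := fun μ => ∀ ν < μ, base ν → (data ν).1 = (data μ).1 → cand ν ≠ cand μ
  let br : W → Option (ℕ → Node) := fun μ => if base μ ∧ new μ then some (cand μ) else none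
  have hbr : ∀ μ b, br μ = some b → base μ ∧ new μ ∧ cand μ = b := by
    intro μ b h
    by_cases h1 : base μ ∧ new μ
    · have : some (cand μ) = some b := by rw [← h]; exact (if_pos h1).symm
      exact ⟨h1.1, h1.2, Option.some.inj this⟩
    · have : (none : Option (ℕ → Node)) = some b := by rw [← h]; exact (if_neg h1).symm
      cases this
  refine ⟨br, ?_, ?_, ?_⟩
  · intro μ b h
    obtain ⟨⟨h1, h2, h3, h4, -⟩, -, rfl⟩ := hbr μ b h
    exact ⟨h3, _, h1, h2, h4⟩
  · have key : ∀ μ ν b b', ν < μ → br μ = some b → br ν = some b' → AlmostDisj b b' := by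
      intro μ ν b b' hlt h1 h2
      obtain ⟨⟨-, -, hi, hc, hp⟩, hn, rfl⟩ := hbr μ b h1
      obtain ⟨⟨hl', hle', hi', hc', hp'⟩, -, rfl⟩ := hbr ν b' h2
      by_cases hl : (data ν).1 = (data μ).1
      · by_contra hAD
        rw [hl] at hc'
        exact hn ν hlt ⟨hl', hle', hi', by rw [hl]; exact hc', hp'⟩ hl
          (eq_of_not_almostDisj hi hi' hc hc' hAD).symm
      · have hrne : r (data μ).1 ≠ r (data ν).1 := fun h => hl (hr h).symm
        obtain ⟨i, hi3⟩ := Function.ne_iff.1 hrne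
        refine almostDisj_of_ne hi hi' (i := i) fun hpp => hi3 ?_
        rw [← hp i, ← hp' i, hpp]
    intro μ ν b b' hne h1 h2
    rcases lt_or_gt_of_ne hne with h | h
    · exact almostDisj_symm (key ν μ b' b h h2 h1)
    · exact key μ ν b b' h h1 h2
  · intro l h hl hb m
    -- the earlier candidates
    obtain ⟨Bad, hBad⟩ : ∃ Bad : ℕ → ℕ → Node, ∀ ν, (ν < m ∨ ν < l) → ∃ j, Bad j = cand ν := by
      have hc : (Iio m ∪ Iio l).Countable := (countable_Iio m).union (countable_Iio l)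
      obtain ⟨a, ha⟩ := hl.1
      obtain ⟨f, hf⟩ := hc.exists_eq_range ⟨a, Or.inr ha⟩
      refine ⟨fun j => cand (f j), fun ν hν => ?_⟩
      have h1 : ν ∈ range f := by rw [← hf]; exact hν
      obtain ⟨j, rfl⟩ := h1
      exact ⟨j, rfl⟩
    obtain ⟨x, hxS, hinf, hcof, hpar, hkill, hne⟩ :=
      exists_mem_of_not_isMeagre hS (hB l h C hb (hP l h hl hb) Bad)
    obtain ⟨ξ, hξ⟩ := hg x hxS
    obtain ⟨μ₀, hμ₀, hdμ₀⟩ := hdata (l, ξ) l
    let P : W → Prop := fun ν => base ν ∧ (data ν).1 = l ∧ cand ν = B l x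
    have hcand : cand μ₀ = B l x := by
      change B (data μ₀).1 (g (data μ₀).2) = B l x
      rw [hdμ₀, hξ]
    have hP₀ : P μ₀ := by
      refine ⟨⟨?_, ?_, ?_, ?_, ?_⟩, by rw [hdμ₀], hcand⟩
      · rw [hdμ₀]; exact hl
      · rw [hdμ₀]; exact hμ₀
      · rw [hcand]; exact hinf
      · rw [hcand, hdμ₀]; exact hcof
      · rw [hcand, hdμ₀]; exact hpar
    obtain ⟨μ, hμ, hmin⟩ : ∃ μ, P μ ∧ ∀ ν < μ, ¬ P ν := by
      have hwf : WellFounded (fun a b : W => a < b) := wellFounded_lt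
      obtain ⟨μ, h1, h2⟩ := hwf.has_min {ν | P ν} ⟨μ₀, hP₀⟩
      exact ⟨μ, h1, fun ν hν hPν => h2 ν hPν hν⟩
    obtain ⟨h1, h2, h3⟩ := hμ
    have h4 : ¬ (μ < m ∨ μ < l) := by
      intro h5
      obtain ⟨j, hj⟩ := hBad μ h5
      exact hne j (by rw [hj, h3])
    push Not at h4
    refine ⟨μ, h4.1, h4.2, B l x, ?_, hcof, hkill⟩
    have hnew : new μ := by
      intro ν hν hbν hdν hcν
      exact hmin ν hν ⟨hbν, hdν.trans h2, hcν.trans h3⟩
    have : br μ = some (cand μ) := if_pos ⟨h1, hnew⟩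
    rw [this, h3]

/-- Under CH the uniformity number of the meagre ideal is `ℵ₁`. -/
theorem nonMeagre_eq_of_CH (hCH : continuum.{0} = ℵ_ 1) : H189.nonMeagre = ℵ_ 1 := by
  refine le_antisymm ?_ ?_
  · have h1 : ¬ IsMeagre (univ : Set ℝ) := not_isMeagre_of_isOpen isOpen_univ univ_nonempty
    have h2 : H189.nonMeagre ≤ #(univ : Set ℝ) := csInf_le' ⟨univ, h1, rfl⟩
    rw [Cardinal.mk_univ_real, hCH] at h2
    exact h2
  · have h1 := H189.aleph0_lt_nonMeagre
    rw [← Order.succ_le_iff, Cardinal.succ_aleph0] at h1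
    exact h1

end Vale.Agent.P129.H471
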