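import Mathlib

/-!
# P129, part N: reading a branch of a tree from a real number

`T` is a tree of finite sequences over a countable set. Every real number is read bit by bit; each
time a bit `1` occurs, the number `c` of bits `0` before it is decoded as a finite sequence and, if
possible, appended to the present member of `T`. Comeagre many reals meet every given dense subset
of the tree.
-/

open Set Filter Topology

namespace Vale.Agent.P129.H471

variable {N : Type}

open Classical in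
/-- one step of the reading -/
noncomputable def step (T : Set (List N)) (e : ℕ → List N) (b : Bool) (σ : List N × ℕ) :
    List N × ℕ :=
  if b then (if σ.1 ++ e σ.2 ∈ T then (σ.1 ++ e σ.2, 0) else (σ.1, 0)) else (σ.1, σ.2 + 1)

/-- the `n`-th bit of `x` -/
noncomputable def bit (n : ℕ) (x : ℝ) : Bool := decide (⌊(2 : ℝ) ^ n * x⌋ % 2 = 1)

/-- the state after `n` bits -/
noncomputable def st (T : Set (List N)) (e : ℕ → List N) (x : ℝ) : ℕ → List N × ℕ
  | 0 => ([], 0)
  | n + 1 => step T e (bit n x) (st T e x n)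

/-- open dyadic intervals -/
def V (n : ℕ) (k : ℤ) : Set ℝ := {x | (k : ℝ) < 2 ^ n * x ∧ 2 ^ n * x < k + 1}

/-- the state after `n + 1` bits on the dyadic interval `V n k` -/
noncomputable def sV (T : Set (List N)) (e : ℕ → List N) : ℕ → ℤ → List N × ℕ
  | 0, k => step T e (decide (k % 2 = 1)) ([], 0)
  | n + 1, k => step T e (decide (k % 2 = 1)) (sV T e n (k / 2))

theorem floor_of_mem {n : ℕ} {k : ℤ} {x : ℝ} (h : x ∈ V n k) : ⌊(2 : ℝ) ^ n * x⌋ = k :=
  Int.floor_eq_iff.2 ⟨h.1.le, h.2⟩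

theorem bit_of_mem {n : ℕ} {k : ℤ} {x : ℝ} (h : x ∈ V n k) : bit n x = decide (k % 2 = 1) := by
  rw [bit, floor_of_mem h]

theorem V_subset_div (n : ℕ) (k : ℤ) : V (n + 1) k ⊆ V n (k / 2) := by
  rintro x ⟨h1, h2⟩
  rw [pow_succ] at h1 h2
  have h3 : (2 * (k / 2) : ℤ) ≤ k := by omega
  have h4 : k + 1 ≤ 2 * (k / 2) + 2 := by omega
  have h5 : (2 * ((k / 2 : ℤ) : ℝ)) ≤ k := by exact_mod_cast h3
  have h6 : (k : ℝ) + 1 ≤ 2 * ((k / 2 : ℤ) : ℝ) + 2 := by exact_mod_cast h4
  constructor
  · nlinarith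
  · nlinarith

theorem V_bit_subset (n : ℕ) (k : ℤ) (b : Bool) : V (n + 1) (2 * k + b.toInt) ⊆ V n k := by
  refine (V_subset_div n _).trans ?_
  have : (2 * k + b.toInt) / 2 = k := by cases b <;> (simp [Bool.toInt]; try omega)
  rw [this]

theorem st_of_mem (T : Set (List N)) (e : ℕ → List N) {n : ℕ} {k : ℤ} {x : ℝ} (h : x ∈ V n k) :
    st T e x (n + 1) = sV T e n k := by
  induction n generalizing k with
  | zero => rw [st, st, sV, bit_of_mem h]
  | succ n ih => rw [st, sV, bit_of_mem h, ih (V_subset_div n k h)]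

theorem exists_word (T : Set (List N)) (e : ℕ → List N) (w : List Bool) (n : ℕ) (k : ℤ) :
    ∃ n' k', V n' k' ⊆ V n k ∧ sV T e n' k' = w.foldl (fun σ b => step T e b σ) (sV T e n k) := by
  induction w generalizing n k with
  | nil => exact ⟨n, k, Subset.rfl, rfl⟩
  | cons b w ih =>
    obtain ⟨n', k', h1, h2⟩ := ih (n + 1) (2 * k + b.toInt)
    refine ⟨n', k', h1.trans (V_bit_subset n k b), ?_⟩
    rw [h2, List.foldl_cons]
    congr 1
    rw [sV]
    have h3 : (2 * k + b.toInt) / 2 = k := by cases b <;> (simp [Bool.toInt]; try omega)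
    have h4 : decide ((2 * k + b.toInt) % 2 = 1) = b := by
      cases b <;> simp [Bool.toInt]
    rw [h3, h4]

theorem isOpen_V (n : ℕ) (k : ℤ) : IsOpen (V n k) := by
  have h : Continuous fun x : ℝ => (2 : ℝ) ^ n * x := by fun_prop
  exact (isOpen_lt continuous_const h).inter (isOpen_lt h continuous_const)

theorem V_nonempty (n : ℕ) (k : ℤ) : (V n k).Nonempty := by
  refine ⟨(k + 1 / 2) / 2 ^ n, ?_, ?_⟩ <;>
  · rw [mul_div_cancel₀ _ (by positivity)]
    linarith

theorem exists_V_subset {U : Set ℝ} (hU : IsOpen U) (hne : U.Nonempty) : ∃ n k, V n k ⊆ U := by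
  obtain ⟨x, hx⟩ := hne
  obtain ⟨ε, hε, hsub⟩ := Metric.isOpen_iff.1 hU x hx
  obtain ⟨n, hn⟩ := exists_pow_lt_of_lt_one hε (by norm_num : (1 / 2 : ℝ) < 1)
  refine ⟨n, ⌊(2 : ℝ) ^ n * x⌋, fun y hy => hsub ?_⟩
  rw [Metric.mem_ball, Real.dist_eq]
  have h1 := Int.floor_le ((2 : ℝ) ^ n * x)
  have h2 := Int.lt_floor_add_one ((2 : ℝ) ^ n * x)
  have h3 := hy.1
  have h4 := hy.2
  have h5 : |(2 : ℝ) ^ n * (y - x)| < 1 := by
    rw [abs_lt]; constructor <;> linarith
  rw [abs_mul, abs_of_pos (by positivity : (0 : ℝ) < 2 ^ n)] at h5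
  have h6 : |y - x| < (1 / 2) ^ n := by
    rw [one_div, inv_pow, ← one_div, lt_div_iff₀ (by positivity)]
    linarith
  exact h6.trans hn

theorem st_mem (T : Set (List N)) (e : ℕ → List N) (h0 : [] ∈ T) (x : ℝ) (n : ℕ) :
    (st T e x n).1 ∈ T := by
  induction n with
  | zero => exact h0
  | succ n ih =>
    rw [st, step]
    split_ifs with h1 h2
    · exact h2
    · exact ih
    · exact ih

theorem sV_mem (T : Set (List N)) (e : ℕ → List N) (h0 : [] ∈ T) (n : ℕ) (k : ℤ) :
    (sV T e n k).1 ∈ T := by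
  obtain ⟨x, hx⟩ := V_nonempty n k
  rw [← st_of_mem T e hx]
  exact st_mem T e h0 x _

theorem st_prefix (T : Set (List N)) (e : ℕ → List N) (x : ℝ) (n : ℕ) :
    (st T e x n).1 <+: (st T e x (n + 1)).1 := by
  rw [st, step]
  split_ifs with h1 h2
  · exact List.prefix_append _ _
  · exact List.prefix_rfl
  · exact List.prefix_rfl

theorem foldl_false (T : Set (List N)) (e : ℕ → List N) (c : ℕ) (σ : List N × ℕ) :
    (List.replicate c false).foldl (fun σ b => step T e b σ) σ = (σ.1, σ.2 + c) := by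
  induction c generalizing σ with
  | zero => rfl
  | succ c ih =>
    rw [List.replicate_succ, List.foldl_cons, ih]
    simp only [step, Bool.false_eq_true, if_false]
    rw [add_assoc, add_comm 1 c]

/-- From every state with list in `T` some word leads to a state whose list belongs to the dense
set `D`. -/
theorem exists_reach (T : Set (List N)) (e : ℕ → List N) (he : Function.Surjective e)
    (D : Set (List N)) (hD : ∀ s ∈ T, ∃ t ∈ D, t ∈ T ∧ s <+: t) (σ : List N × ℕ) (hσ : σ.1 ∈ T) :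
    ∃ w : List Bool, (w.foldl (fun σ b => step T e b σ) σ).1 ∈ D := by
  -- first read a bit `1`
  obtain ⟨s', h1, h2⟩ : ∃ s' ∈ T, step T e true σ = (s', 0) := by
    by_cases h : σ.1 ++ e σ.2 ∈ T
    · exact ⟨_, h, by simp [step, h]⟩
    · exact ⟨_, hσ, by simp [step, h]⟩
  obtain ⟨t, ht, htT, v, rfl⟩ := hD s' h1
  obtain ⟨c, rfl⟩ := he v
  refine ⟨true :: (List.replicate c false ++ [true]), ?_⟩
  rw [List.foldl_cons, h2, List.foldl_append, foldl_false, List.foldl_cons, List.foldl_nil]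
  simp only [step, if_true, zero_add, htT]
  exact ht

/-- **Reading lemma.** -/
theorem exists_reading [Countable N] (T : Set (List N)) (h0 : [] ∈ T) :
    ∃ B : ℝ → ℕ → List N, (∀ x n, B x n ∈ T) ∧ (∀ x n, B x n <+: B x (n + 1)) ∧
      ∀ D : Set (List N), (∀ s ∈ T, ∃ t ∈ D, t ∈ T ∧ s <+: t) →
        ∀ᶠ x in residual ℝ, ∃ n, B x n ∈ D := by
  have hne : Nonempty (List N) := ⟨[]⟩
  obtain ⟨e, he⟩ := exists_surjective_nat (List N)
  refine ⟨fun x n => (st T e x n).1, st_mem T e h0, st_prefix T e, fun D hD => ?_⟩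
  set O : Set ℝ := {x | ∃ n, (st T e x n).1 ∈ D}
  have hO : Dense (interior O) := by
    rw [dense_iff_inter_open]
    intro U hU hUne
    obtain ⟨n, k, hnk⟩ := exists_V_subset hU hUne
    obtain ⟨w, hw⟩ := exists_reach T e he D hD (sV T e n k) (sV_mem T e h0 n k)
    obtain ⟨n', k', h1, h2⟩ := exists_word T e w n k
    have hsub : V n' k' ⊆ O := fun x hx => ⟨n' + 1, by rw [st_of_mem T e hx, h2]; exact hw⟩
    obtain ⟨x, hx⟩ := V_nonempty n' k'
    exact ⟨x, hnk (h1 hx), interior_maximal hsub (isOpen_V n' k') hx⟩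
  exact Filter.mem_of_superset (residual_of_dense_open isOpen_interior hO) interior_subset

/-- `L` is an initial segment of the sequence `b`. -/
def Init (b : ℕ → N) (L : List N) : Prop := ∀ i (h : i < L.length), L[i] = b i

/-- **Reading lemma, sequence form.** -/
theorem exists_reading_seq [Countable N] (d : N) (T : Set (List N)) (h0 : [] ∈ T) :
    ∃ B : ℝ → ℕ → N, ∀ D : ℕ → Set (List N), (∀ j, ∀ s ∈ T, ∃ t ∈ D j, t ∈ T ∧ s <+: t) →
      (∀ n, ∀ s ∈ T, ∃ t ∈ T, s <+: t ∧ n ≤ t.length) →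
        ∀ᶠ x in residual ℝ, (∀ n, ∃ L ∈ T, n ≤ L.length ∧ Init (B x) L) ∧
          ∀ j, ∃ L ∈ D j, L ∈ T ∧ Init (B x) L := by
  classical
  obtain ⟨B, hT, hpre, hB⟩ := exists_reading T h0
  have hmono : ∀ x m n, m ≤ n → B x m <+: B x n := by
    intro x m n hmn
    induction n, hmn using Nat.le_induction with
    | base => exact List.prefix_rfl
    | succ n _ ih => exact ih.trans (hpre x n)
  refine ⟨fun x i => if h : ∃ n, i < (B x n).length then (B x h.choose)[i]'h.choose_spec else d,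
    fun D hD hlen => ?_⟩
  have h1 : ∀ᶠ x in residual ℝ, ∀ n, ∃ m, B x m ∈ {L : List N | n ≤ L.length} := by
    rw [eventually_countable_forall]
    intro n
    refine hB _ fun s hs => ?_
    obtain ⟨t, ht, h2, h3⟩ := hlen n s hs
    exact ⟨t, h3, ht, h2⟩
  have h2 : ∀ᶠ x in residual ℝ, ∀ j, ∃ m, B x m ∈ D j := by
    rw [eventually_countable_forall]
    exact fun j => hB _ (hD j)
  have hinit : ∀ x m, Init (fun i => if h : ∃ n, i < (B x n).length then
      (B x h.choose)[i]'h.choose_spec else d) (B x m) := by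
    intro x m i hi
    have hex : ∃ n, i < (B x n).length := ⟨m, hi⟩
    simp only [hex, dif_pos]
    rcases le_total m hex.choose with h | h
    · exact (hmono x _ _ h).getElem hi
    · exact ((hmono x _ _ h).getElem hex.choose_spec).symm
  filter_upwards [h1, h2] with x hx1 hx2
  refine ⟨fun n => ?_, fun j => ?_⟩
  · obtain ⟨m, hm⟩ := hx1 n
    exact ⟨B x m, hT x m, hm, hinit x m⟩
  · obtain ⟨m, hm⟩ := hx2 j
    exact ⟨B x m, hm, hT x m, hinit x m⟩

/-- A nonmeagre set meets every comeagre set. -/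
theorem exists_mem_of_not_isMeagre {X : Type*} [TopologicalSpace X] {S : Set X}
    (hS : ¬ IsMeagre S) {P : X → Prop} (h : ∀ᶠ x in residual X, P x) : ∃ x ∈ S, P x := by
  by_contra hcon
  push Not at hcon
  refine hS (Filter.mem_of_superset h fun x hx hxS => hcon x hxS hx)

end Vale.Agent.P129.H471
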