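import Vale.Agent.P129.H471.Read
import Vale.Agent.P129.H50.Supply

/-!
# P129, part N: the tree of finite special sequences below a limit index

`Tree l r` is the tree of the finite special sequences with supports below `l` whose parameters
have the parities prescribed by `r`. Given exact pairs in a block sequence `h`, comeagre many reals
are read as an infinite special sequence which is cofinal in `l` and exact on infinitely many
vectors of every tail of `h`.
-/

open Set Filter Topology

namespace Vale.Agent.P129.H471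

open H448 H50

/-! ### Nodes below `l` -/

/-- the nodes with support below `l` -/
abbrev NodeBelow (l : W) : Type := {x : Node // ∀ a ∈ x.φ.support, a < l}

instance countable_nodeBelow (l : W) : Countable (NodeBelow l) := by
  have hc : Countable {a : W // a < l} := (countable_Iio l).to_subtype
  refine Function.Injective.countable (β := ({a : W // a < l} →₀ ℚ) × ℕ × ℕ)
    (f := fun x => (x.1.φ.subtypeDomain fun a => a < l, x.1.w, x.1.p)) ?_
  rintro ⟨⟨φ, w, p⟩, hx⟩ ⟨⟨ψ, w', p'⟩, hy⟩ h
  simp only [Prod.mk.injEq] at h hx hy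
  obtain ⟨h1, h2, h3⟩ := h
  have h4 : φ = ψ := by
    ext a
    by_cases ha : a < l
    · exact DFunLike.congr_fun h1 ⟨a, ha⟩
    · have e1 : φ a = 0 := by
        by_contra hne
        exact ha (hx a (Finsupp.mem_support_iff.2 hne))
      have e2 : ψ a = 0 := by
        by_contra hne
        exact ha (hy a (Finsupp.mem_support_iff.2 hne))
      rw [e1, e2]
  subst h4 h2 h3
  rfl

/-- the trivial node -/
def nodeZero (l : W) : NodeBelow l := ⟨⟨0, 0, 0⟩, by simp⟩

/-- a finite sequence as a function -/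
noncomputable def fn {l : W} (L : List (NodeBelow l)) (i : ℕ) : Node := (L.getD i (nodeZero l)).1

theorem fn_eq {l : W} (L : List (NodeBelow l)) {i : ℕ} (hi : i < L.length) : fn L i = L[i].1 := by
  rw [fn, List.getD_eq_getElem _ _ hi]

theorem fn_append {l : W} (L : List (NodeBelow l)) (x : NodeBelow l) {i : ℕ} (hi : i < L.length) :
    fn (L ++ [x]) i = fn L i := by
  rw [fn_eq _ hi, fn_eq _ (by simp; omega), List.getElem_append_left hi]

theorem fn_append_self {l : W} (L : List (NodeBelow l)) (x : NodeBelow l) :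
    fn (L ++ [x]) L.length = x.1 := by
  rw [fn_eq _ (by simp), List.getElem_append_right le_rfl]
  simp

theorem fn_of_prefix {l : W} {L L' : List (NodeBelow l)} (h : L <+: L') {i : ℕ}
    (hi : i < L.length) : fn L i = fn L' i := by
  rw [fn_eq _ hi, fn_eq _ (hi.trans_le h.length_le), h.getElem hi]

theorem fn_below {l : W} (L : List (NodeBelow l)) (i : ℕ) : ∀ a ∈ (fn L i).φ.support, a < l :=
  (L.getD i (nodeZero l)).2

/-- the parity condition -/
def Par (r : ℕ → Bool) (x : Node) (i : ℕ) : Prop := decide (x.p % 2 = 1) = r i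

/-- finite special sequences below `l` with prescribed parities of the parameters -/
def Tree (l : W) (r : ℕ → Bool) : Set (List (NodeBelow l)) :=
  {L | IsSpecial K (fn L) L.length ∧ ∀ i < L.length, Par r (fn L i) i}

theorem nil_mem_tree (l : W) (r : ℕ → Bool) : [] ∈ Tree l r :=
  ⟨special_zero _ _, fun i hi => absurd hi (Nat.not_lt_zero i)⟩

theorem exists_parity (b : Bool) (n : ℕ) : ∃ p, n ≤ p ∧ decide (p % 2 = 1) = b := by
  cases b
  · exact ⟨2 * n, by omega, by simp⟩
  · exact ⟨2 * n + 1, by omega, by simp⟩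

/-- Extension of a member of the tree by an exact pair far in `h`. -/
theorem exists_ext {l : W} {h : ℕ → Vec} (hb : IsBlock l h) {C : ℝ} (hP : PairSupply h C)
    (r : ℕ → Bool) {L : List (NodeBelow l)} (hL : L ∈ Tree l r) (S : Finset W)
    (hS : ∀ a ∈ S, a < l) (k₀ n : ℕ) :
    ∃ (x : NodeBelow l) (u : Vec), L ++ [x] ∈ Tree l r ∧
      u ∈ Submodule.span ℝ (h '' {k | k₀ ≤ k}) ∧ nrm u ≤ C ∧ ap x.1.φ u = 1 ∧
      (x.1.φ.support : Set W) ⊆ ran u.support ∧ (∀ a ∈ u.support, a < l) ∧
      (∀ a ∈ S, ∀ b ∈ u.support, a < b) ∧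
      (∀ i < L.length, ∀ a ∈ (fn L i).φ.support, ∀ b ∈ u.support, a < b) ∧ n ≤ x.1.p := by
  classical
  let S' : Finset W := S ∪ (Finset.range L.length).biUnion fun i => (fn L i).φ.support
  obtain ⟨k₁, hk₁⟩ := exists_tail hb S' (by
    intro a ha
    rcases Finset.mem_union.1 ha with h1 | h1
    · exact hS a h1
    · obtain ⟨i, -, hi⟩ := Finset.mem_biUnion.1 h1
      exact fn_below L i a hi)
  obtain ⟨w₀, hw₀⟩ : ∃ w₀, w₀ = H853.sigma (H853.code F (fn L) L.length) := ⟨_, rfl⟩
  obtain ⟨u, φ, hu, huC, hφ, hap, hsub⟩ := hP w₀ (max k₀ k₁)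
  have hbeyond : ∀ a ∈ S', ∀ b ∈ u.support, a < b := by
    intro a ha b hbu
    obtain ⟨k, hk, hbk⟩ := mem_support_of_span hu b hbu
    exact hk₁ k ((le_max_right _ _).trans hk) a ha b hbk
  have hbN : ∀ i < L.length, ∀ a ∈ (fn L i).φ.support, ∀ b ∈ u.support, a < b :=
    fun i hi a ha b hbu => hbeyond a (Finset.mem_union_right _
      (Finset.mem_biUnion.2 ⟨i, Finset.mem_range.2 hi, ha⟩)) b hbu
  have hul : ∀ a ∈ u.support, a < l := by
    intro a ha
    obtain ⟨k, -, hk⟩ := mem_support_of_span hu a ha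
    exact hb.lt k a hk
  have hφl : ∀ a ∈ φ.support, a < l := fun a ha => ran_lt hul a (hsub ha)
  have hslt : ∀ j < L.length, SLt (fn L j).φ.support φ.support := by
    intro j hj a ha b hbφ
    obtain ⟨c, hc, d, -, hcb, -⟩ := hsub hbφ
    exact (hbN j hj a ha c hc).trans_le hcb
  obtain ⟨p₀, hp₀⟩ : ∃ p₀ : ℕ, ∀ p, p₀ ≤ p →
      IsSpecial K (Function.update (fn L) L.length ⟨φ, w₀, p⟩) (L.length + 1) := by
    rw [hw₀] at hφ ⊢
    exact special_extend hL.1 hφ (ne_zero_of_ap hap) hslt
  obtain ⟨p, hp, hpar⟩ := exists_parity (r L.length) (max p₀ n)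
  have hset : {k | max k₀ k₁ ≤ k} ⊆ {k | k₀ ≤ k} := fun k hk => (le_max_left k₀ k₁).trans hk
  have hspan : u ∈ Submodule.span ℝ (h '' {k | k₀ ≤ k}) :=
    Submodule.span_mono (Set.image_mono hset) hu
  refine ⟨⟨⟨φ, w₀, p⟩, hφl⟩, u, ⟨?_, ?_⟩, hspan, huC, hap, hsub,
    hul, fun a ha => hbeyond a (Finset.mem_union_left _ ha), hbN, (le_max_right _ _).trans hp⟩
  · rw [List.length_append, List.length_singleton]
    refine special_congr (fun j hj => ?_) (hp₀ p ((le_max_left _ _).trans hp))
    rcases (Nat.lt_succ_iff.1 hj).eq_or_lt with h1 | h1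
    · subst h1
      rw [Function.update_self, fn_append_self]
    · rw [Function.update_of_ne h1.ne, fn_append _ _ h1]
  · intro i hi
    rw [List.length_append, List.length_singleton] at hi
    rcases (Nat.lt_succ_iff.1 hi).eq_or_lt with h1 | h1
    · subst h1
      rw [fn_append_self]
      exact hpar
    · rw [fn_append _ _ h1]
      exact hL.2 i h1

/-! ### Dense subsets of the tree -/

/-- some node lies beyond `a` -/
def DCof (l : W) (a : W) : Set (List (NodeBelow l)) :=
  {L | ∃ i < L.length, ∀ b ∈ (fn L i).φ.support, a < b}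

/-- some node is exact on a vector of the tail of `h`, and the neighbouring nodes are separated
from this vector -/
def DHit (l : W) (h : ℕ → Vec) (C : ℝ) (n : ℕ) : Set (List (NodeBelow l)) :=
  {L | ∃ i, i + 1 < L.length ∧ ∃ u ∈ Submodule.span ℝ (h '' {k | n ≤ k}), nrm u ≤ C ∧
    ap (fn L i).φ u = 1 ∧ (∀ j < i, SLt (fn L j).φ.support u.support) ∧
      SLt u.support (fn L (i + 1)).φ.support}

/-- the sequence is not an initial segment of `b` -/
def DNe (l : W) (b : ℕ → Node) : Set (List (NodeBelow l)) := {L | ∃ i < L.length, fn L i ≠ b i}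

section dense

variable {l : W} {h : ℕ → Vec} (hb : IsBlock l h) {C : ℝ} (hP : PairSupply h C) (r : ℕ → Bool)
include hb hP

theorem dense_cof (a : W) (ha : a < l) (s : List (NodeBelow l)) (hs : s ∈ Tree l r) :
    ∃ t ∈ DCof l a, t ∈ Tree l r ∧ s <+: t := by
  obtain ⟨x, u, h1, -, -, -, hsub, -, hS, -, -⟩ := exists_ext hb hP r hs {a} (by simpa using ha) 0 0
  refine ⟨s ++ [x], ⟨s.length, by simp, ?_⟩, h1, List.prefix_append _ _⟩
  rw [fn_append_self]
  intro b hbx
  obtain ⟨c, hc, d, -, hcb, -⟩ := hsub hbx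
  exact (hS a (Finset.mem_singleton_self a) c hc).trans_le hcb

theorem dense_hit (n : ℕ) (s : List (NodeBelow l)) (hs : s ∈ Tree l r) :
    ∃ t ∈ DHit l h C n, t ∈ Tree l r ∧ s <+: t := by
  obtain ⟨x, u, h1, hu, huC, hap, hsub, hul, -, hbN, -⟩ :=
    exists_ext hb hP r hs ∅ (by simp) n 0
  obtain ⟨y, v, h2, -, -, -, hsub', -, hS', -, -⟩ := exists_ext hb hP r h1 u.support hul 0 0
  refine ⟨s ++ [x] ++ [y], ⟨s.length, by simp, u, hu, huC, ?_, ?_, ?_⟩, h2, ?_⟩
  · rw [fn_append _ _ (by simp), fn_append_self]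
    exact hap
  · intro j hj
    rw [fn_append _ _ (by simp; omega), fn_append _ _ hj]
    exact hbN j hj
  · have : s.length + 1 = (s ++ [x]).length := by simp
    rw [this, fn_append_self]
    intro a ha b hby
    obtain ⟨c, hc, d, -, hcb, -⟩ := hsub' hby
    exact (hS' a ha c hc).trans_le hcb
  · rw [List.append_assoc]
    exact List.prefix_append _ _

theorem dense_ne (b : ℕ → Node) (s : List (NodeBelow l)) (hs : s ∈ Tree l r) :
    ∃ t ∈ DNe l b, t ∈ Tree l r ∧ s <+: t := by
  obtain ⟨x, u, h1, -, -, -, -, -, -, -, hp⟩ :=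
    exists_ext hb hP r hs ∅ (by simp) 0 ((b s.length).p + 1)
  refine ⟨s ++ [x], ⟨s.length, by simp, ?_⟩, h1, List.prefix_append _ _⟩
  rw [fn_append_self]
  intro he
  rw [he] at hp
  omega

theorem dense_length (n : ℕ) (s : List (NodeBelow l)) (hs : s ∈ Tree l r) :
    ∃ t ∈ Tree l r, s <+: t ∧ n ≤ t.length := by
  induction n with
  | zero => exact ⟨s, hs, List.prefix_rfl, Nat.zero_le _⟩
  | succ n ih =>
    obtain ⟨t, ht, h1, h2⟩ := ih
    obtain ⟨x, u, h3, -⟩ := exists_ext hb hP r ht ∅ (by simp) 0 0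
    exact ⟨t ++ [x], h3, h1.trans (List.prefix_append _ _), by simp; omega⟩

end dense

/-! ### The branch read from a real number -/

/-- the sequence `b` takes vectors of every tail of `h`, of norm at most `C`, to `1` -/
def Kills (b : ℕ → Node) (h : ℕ → Vec) (C : ℝ) : Prop :=
  ∀ n : ℕ, ∃ u ∈ Submodule.span ℝ (h '' {k | n ≤ k}), nrm u ≤ C ∧ pr (H448.br b) u = 1

theorem isSpecial_le {A : Set Fn} {Φ : ℕ → Node} {m n : ℕ} (h : IsSpecial A Φ n) (hmn : m ≤ n) :
    IsSpecial A Φ m := ⟨h.cod.mono hmn, fun k hk => h.wtd k (hk.trans_le hmn)⟩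

theorem fn_of_init {l : W} {B : ℕ → NodeBelow l} {L : List (NodeBelow l)} (hL : Init B L) {i : ℕ}
    (hi : i < L.length) : fn L i = (B i).1 := by
  rw [fn_eq _ hi, hL i hi]

/-- the value of a branch on a vector which is separated from all nodes but one -/
theorem pr_br_eq {b : ℕ → Node} (hb : IsInf b) {i : ℕ} {u : Vec}
    (h1 : ∀ j < i, SLt (b j).φ.support u.support) (h2 : SLt u.support (b (i + 1)).φ.support) :
    pr (H448.br b) u = ap (b i).φ u := by
  have hval : ∀ a ∈ u.support, H448.br b a = toR (b i).φ a := by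
    intro a ha
    unfold H448.br tl
    rw [finsum_eq_single _ i]
    · simp [toR]
    · intro k hki
      simp only [Nat.zero_le, if_true]
      by_contra hne
      have hmem : a ∈ (b k).φ.support := by
        rw [Finsupp.mem_support_iff]
        intro h0
        exact hne (by rw [h0]; simp)
      rcases lt_or_gt_of_ne hki with hlt | hlt
      · exact lt_irrefl _ (h1 k hlt a hmem a ha)
      · rcases (Nat.succ_le_of_lt hlt).eq_or_lt with h3 | h3
        · rw [Nat.succ_eq_add_one] at h3
          rw [← h3] at hmem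
          exact lt_irrefl _ (h2 a ha a hmem)
        · have hcod := (hb (k + 1)).cod
          obtain ⟨c, hc⟩ := Finsupp.support_nonempty_iff.2 (hcod (i + 1) (by omega)).ne
          have h4 := hcod.bef h3 (Nat.lt_succ_self k) c hc a hmem
          exact lt_irrefl _ ((h2 a ha c hc).trans h4)
  unfold ap pr
  rw [Finsupp.linearCombination_apply, Finsupp.linearCombination_apply, Finsupp.sum,
    Finsupp.sum]
  exact Finset.sum_congr rfl fun a ha => by rw [hval a ha]

/-- **The branches read from the reals.** -/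
theorem exists_branches (l : W) (r : ℕ → Bool) : ∃ B : ℝ → ℕ → Node,
    ∀ (h : ℕ → Vec) (C : ℝ), IsBlock l h → PairSupply h C →
      ∀ Bad : ℕ → ℕ → Node, ∀ᶠ x in residual ℝ, IsInf (B x) ∧ Cofinal (B x) l ∧
        (∀ i, Par r (B x i) i) ∧ Kills (B x) h C ∧ ∀ j, B x ≠ Bad j := by
  obtain ⟨B, hB⟩ := exists_reading_seq (nodeZero l) (Tree l r) (nil_mem_tree l r)
  refine ⟨fun x i => (B x i).1, fun h C hb hP Bad => ?_⟩
  have h1 := hB (fun _ => univ) (fun _ s hs => ⟨s, mem_univ _, hs, List.prefix_rfl⟩)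
    (dense_length hb hP r)
  have hcount : Countable (Iio l) := (countable_Iio l).to_subtype
  have h2 : ∀ᶠ x in residual ℝ, ∀ a : Iio l, ∃ L ∈ DCof l a, L ∈ Tree l r ∧ Init (B x) L := by
    rw [eventually_countable_forall]
    intro a
    have := hB (fun _ => DCof l a) (fun _ => dense_cof hb hP r a a.2) (dense_length hb hP r)
    filter_upwards [this] with x hx
    exact hx.2 0
  have h3 := hB (DHit l h C) (dense_hit hb hP r) (dense_length hb hP r)
  have h4 := hB (fun j => DNe l (Bad j)) (fun j => dense_ne hb hP r (Bad j))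
    (dense_length hb hP r)
  filter_upwards [h1, h2, h3, h4] with x hx1 hx2 hx3 hx4
  have hinf : IsInf fun i => (B x i).1 := by
    intro n
    obtain ⟨L, hL, hn, hI⟩ := hx1.1 n
    exact isSpecial_le (special_congr (fun j hj => fn_of_init hI hj) hL.1) hn
  refine ⟨hinf, ⟨fun k => (B x k).2, ?_⟩, ?_, ?_, ?_⟩
  · intro a ha
    obtain ⟨L, ⟨i, hi, hia⟩, -, hI⟩ := hx2 ⟨a, ha⟩
    refine ⟨i, fun c hc => hia c ?_⟩
    rw [fn_of_init hI hi]
    exact hc
  · intro i
    obtain ⟨L, hL, hn, hI⟩ := hx1.1 (i + 1)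
    rw [← fn_of_init hI (by omega)]
    exact hL.2 i (by omega)
  · intro n
    obtain ⟨L, ⟨i, hi, u, hu, huC, hap, hbef, haft⟩, -, hI⟩ := hx3.2 n
    refine ⟨u, hu, huC, ?_⟩
    rw [pr_br_eq hinf (i := i)]
    · rw [← fn_of_init hI (by omega)]
      exact hap
    · intro j hj
      rw [← fn_of_init hI (by omega)]
      exact hbef j hj
    · rw [← fn_of_init hI hi]
      exact haft
  · intro j he
    obtain ⟨L, ⟨i, hi, hne⟩, -, hI⟩ := hx4.2 j
    refine hne ?_
    rw [fn_of_init hI hi]
    exact congrFun he i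

end Vale.Agent.P129.H471
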